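import Mathlib

open Classical

namespace Vale.Agent.P067

universe u

variable {V : Type u} [Fintype V]

abbrev Face (X : AbstractSimplicialComplex V) (i : ℕ) : Type u :=
  {s : Finset V // s ∈ X.faces ∧ s.card = i + 1}

abbrev Cochain (X : AbstractSimplicialComplex V) (i : ℕ) : Type u :=
  Face X i → ZMod 2

noncomputable def topCount (X : AbstractSimplicialComplex V) (d : ℕ) (s : Finset V) : ℕ :=
  (Finset.univ.filter (fun t : Face X d => s ⊆ t.1)).card

noncomputable def weight (X : AbstractSimplicialComplex V) (d i : ℕ) (s : Face X i) : ℝ :=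
  (topCount X d s.1 : ℝ) / (((d + 1).choose (i + 1) : ℝ) * (Fintype.card (Face X d) : ℝ))

noncomputable def norm (X : AbstractSimplicialComplex V) (d i : ℕ) (f : Cochain X i) : ℝ :=
  ∑ s ∈ Finset.univ.filter (fun s : Face X i => f s ≠ 0), weight X d i s

noncomputable def cobd (X : AbstractSimplicialComplex V) (i : ℕ) :
    Cochain X i →ₗ[ZMod 2] Cochain X (i + 1) where
  toFun f t := ∑ s ∈ Finset.univ.filter (fun s : Face X i => s.1 ⊆ t.1), f s
  map_add' f g := by
    funext t
    simp [Finset.sum_add_distrib]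
  map_smul' c f := by
    funext t
    simp [Finset.mul_sum]

noncomputable def cocycles (X : AbstractSimplicialComplex V) (i : ℕ) :
    Submodule (ZMod 2) (Cochain X i) :=
  LinearMap.ker (cobd X i)

noncomputable def cobounds (X : AbstractSimplicialComplex V) :
    (i : ℕ) → Submodule (ZMod 2) (Cochain X i)
  | 0 => Submodule.span (ZMod 2) {fun _ => 1}
  | (i + 1) => LinearMap.range (cobd X i)

noncomputable def distTo (X : AbstractSimplicialComplex V) (d i : ℕ) (f : Cochain X i)
    (A : Submodule (ZMod 2) (Cochain X i)) : ℝ :=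
  ⨅ a : A, norm X d i (f - a.1)

def IsPure (X : AbstractSimplicialComplex V) (d : ℕ) : Prop :=
  ∀ s ∈ X.faces, ∃ t ∈ X.faces, s ⊆ t ∧ t.card = d + 1

noncomputable def degree (X : AbstractSimplicialComplex V) (d : ℕ) : ℕ :=
  Finset.univ.sup (fun v : V => topCount X d {v})

def IsCoboundaryExpander (X : AbstractSimplicialComplex V) (d : ℕ) (ε : ℝ) : Prop :=
  ∀ i, i < d → ∀ f : Cochain X i,
    ε * distTo X d i f (cobounds X i) ≤ norm X d (i + 1) (cobd X i f)

def IsCosystolicExpander (X : AbstractSimplicialComplex V) (d : ℕ) (ε : ℝ) : Prop :=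
  (∀ i, i < d → ∀ f : Cochain X i,
    ε * distTo X d i f (cocycles X i) ≤ norm X d (i + 1) (cobd X i f)) ∧
  (∀ i, i < d → ∀ f : Cochain X i, f ∈ cocycles X i → f ∉ cobounds X i → ε ≤ norm X d i f)

def oneSkeleton (X : AbstractSimplicialComplex V) : SimpleGraph V where
  Adj u v := u ≠ v ∧ ({u, v} : Finset V) ∈ X.faces
  symm := ⟨fun u v h => ⟨h.1.symm, by rw [Finset.pair_comm]; exact h.2⟩⟩
  loopless := ⟨fun u h => h.1 rfl⟩

end Vale.Agent.P067
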