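import Vale.Agent.P067.Lemmas

open Classical

namespace Vale.Agent.P067

universe u

variable {V : Type u} [Fintype V] {X : AbstractSimplicialComplex V}

lemma cobounds_le_cocycles (i : ℕ) : cobounds X i ≤ cocycles X i := by
  cases i with
  | zero =>
    show Submodule.span (ZMod 2) {fun _ => 1} ≤ cocycles X 0
    rw [Submodule.span_le, Set.singleton_subset_iff]
    exact cobd_const
  | succ i =>
    rintro _ ⟨f, rfl⟩
    exact cobd_cobd i f

lemma distTo_attained (d i : ℕ) (f : Cochain X i) (A : Submodule (ZMod 2) (Cochain X i)) :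
    ∃ a ∈ A, norm X d i (f - a) = distTo X d i f A := by
  obtain ⟨a, ha⟩ := exists_eq_ciInf_of_finite (f := fun a : A => norm X d i (f - a.1))
  exact ⟨a.1, a.2, ha⟩

lemma norm_zero (d i : ℕ) : norm X d i 0 = 0 := by
  unfold norm
  simp

lemma eq_zero_of_norm_le_zero {d i : ℕ} (hp : IsPure X d) (f : Cochain X i)
    (h : norm X d i f ≤ 0) : f = 0 := by
  by_contra hne
  obtain ⟨s, hs⟩ : ∃ s, f s ≠ 0 := by
    by_contra hh
    push Not at hh
    exact hne (funext hh)
  have h1 := norm_lower hp f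
  have h2 := denom_pos hp s
  have h3 : 0 < sz f := by
    unfold sz
    rw [Finset.card_pos]
    exact ⟨s, by simp [hs]⟩
  have h4 : (0 : ℝ) < sz f := by exact_mod_cast h3
  have h5 : 0 < (sz f : ℝ) / (((d + 1).choose (i + 1) : ℝ) * (Fintype.card (Face X d) : ℝ)) :=
    div_pos h4 h2
  linarith

lemma cocycles_eq_cobounds {d : ℕ} {ε : ℝ} (hε : 0 < ε) (hp : IsPure X d)
    (h : IsCoboundaryExpander X d ε) (i : ℕ) (hi : i < d) : cocycles X i = cobounds X i := by
  refine le_antisymm ?_ (cobounds_le_cocycles i)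
  intro z hz
  have h1 := h i hi z
  have hz' : cobd X i z = 0 := hz
  rw [hz', norm_zero] at h1
  obtain ⟨a, ha, hd⟩ := distTo_attained d i z (cobounds X i)
  rw [← hd] at h1
  have h2 : norm X d i (z - a) ≤ 0 := by
    by_contra hh
    push Not at hh
    have := mul_pos hε hh
    linarith
  have h3 := eq_zero_of_norm_le_zero hp _ h2
  rw [sub_eq_zero] at h3
  rw [h3]
  exact ha

theorem cosystolic_of_coboundary {d : ℕ} {ε : ℝ} (hε : 0 < ε) (hp : IsPure X d)
    (h : IsCoboundaryExpander X d ε) : IsCosystolicExpander X d ε := by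
  constructor
  · intro i hi f
    rw [cocycles_eq_cobounds hε hp h i hi]
    exact h i hi f
  · intro i hi f hf hnf
    rw [cocycles_eq_cobounds hε hp h i hi] at hf
    exact absurd hf hnf

def Cofill (X : AbstractSimplicialComplex V) (d : ℕ) (ε : ℝ) : Prop :=
  (∀ m, m < d → ∀ g ∈ LinearMap.range (cobd X m),
    ∃ u, cobd X m u = g ∧ ε * norm X d m u ≤ norm X d (m + 1) g) ∧
  (∀ m, m < d → ∀ z ∈ cocycles X m, norm X d m z < ε → z ∈ cobounds X m)

lemma cofill_of_cosystolic {d : ℕ} {ε : ℝ} (h : IsCosystolicExpander X d ε) : Cofill X d ε := by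
  constructor
  · rintro m hm _ ⟨f, rfl⟩
    obtain ⟨a, ha, hd⟩ := distTo_attained d m f (cocycles X m)
    refine ⟨f - a, ?_, ?_⟩
    · have ha' : cobd X m a = 0 := ha
      rw [map_sub, ha', sub_zero]
    · rw [hd]
      exact h.1 m hm f
  · intro m hm z hz hn
    by_contra hb
    have := h.2 m hm z hz hb
    linarith

end Vale.Agent.P067
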