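import Vale.Agent.P067.Basic

open Classical

namespace Vale.Agent.P067

universe u

variable {V : Type u} [Fintype V] {X : AbstractSimplicialComplex V}

lemma zmod2_eq_one : ∀ a : ZMod 2, a ≠ 0 → a = 1 := by decide

lemma zmod2_add_self : ∀ a : ZMod 2, a + a = 0 := by decide

omit [Fintype V] in
lemma face_of_subset {s t : Finset V} (ht : t ∈ X.faces) (hst : s ⊆ t) (hs : s.Nonempty) :
    s ∈ X.faces :=
  (X.isRelLowerSet_faces ht).2 hst hs

noncomputable def sz {i : ℕ} (f : Cochain X i) : ℕ :=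
  (Finset.univ.filter (fun s : Face X i => f s ≠ 0)).card

lemma sz_add_le {i : ℕ} (f g : Cochain X i) : sz (f + g) ≤ sz f + sz g := by
  unfold sz
  refine le_trans (Finset.card_le_card ?_) (Finset.card_union_le _ _)
  intro s hs
  simp only [Finset.mem_filter, Finset.mem_univ, true_and, Finset.mem_union, Pi.add_apply] at hs ⊢
  by_contra h
  push Not at h
  exact hs (by rw [h.1, h.2, add_zero])

lemma sz_zero {i : ℕ} : sz (0 : Cochain X i) = 0 := by
  unfold sz
  simp

lemma sz_sum_le {i : ℕ} {ι : Type*} (s : Finset ι) (f : ι → Cochain X i) :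
    sz (∑ j ∈ s, f j) ≤ ∑ j ∈ s, sz (f j) := by
  induction s using Finset.induction_on with
  | empty => simp [sz_zero]
  | insert a s ha ih =>
    rw [Finset.sum_insert ha, Finset.sum_insert ha]
    exact le_trans (sz_add_le _ _) (Nat.add_le_add_left ih _)

lemma sz_single_le {i : ℕ} (s : Face X i) : sz (Pi.single s (1 : ZMod 2) : Cochain X i) ≤ 1 := by
  unfold sz
  have : (Finset.univ.filter (fun t : Face X i => (Pi.single s (1 : ZMod 2) : Cochain X i) t ≠ 0))
      ⊆ {s} := by
    intro t ht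
    simp only [Finset.mem_filter, Finset.mem_univ, true_and] at ht
    rw [Finset.mem_singleton]
    by_contra h
    exact ht (Pi.single_eq_of_ne h _)
  exact le_trans (Finset.card_le_card this) (by simp)

lemma sz_map_le {i j : ℕ} (H : Cochain X i →ₗ[ZMod 2] Cochain X j) (K : ℝ)
    (hH : ∀ s, (sz (H (Pi.single s 1)) : ℝ) ≤ K) (g : Cochain X i) :
    (sz (H g) : ℝ) ≤ sz g * K := by
  have h1 : H g = ∑ s ∈ Finset.univ.filter (fun s : Face X i => g s ≠ 0), H (Pi.single s 1) := by
    rw [LinearMap.pi_apply_eq_sum_univ H g, Finset.sum_filter]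
    refine Finset.sum_congr rfl ?_
    intro s _
    have hs : (fun j => if s = j then (1 : ZMod 2) else 0) = Pi.single s 1 := by
      funext j
      simp [Pi.single_apply, eq_comm]
    rw [hs]
    by_cases h : g s = 0
    · simp [h]
    · have : g s = 1 := zmod2_eq_one _ h
      simp [this]
  rw [h1]
  calc (sz (∑ s ∈ Finset.univ.filter (fun s : Face X i => g s ≠ 0), H (Pi.single s 1)) : ℝ)
      ≤ ((∑ s ∈ Finset.univ.filter (fun s : Face X i => g s ≠ 0), sz (H (Pi.single s 1)) : ℕ) : ℝ) := by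
        exact_mod_cast sz_sum_le _ _
    _ = ∑ s ∈ Finset.univ.filter (fun s : Face X i => g s ≠ 0), (sz (H (Pi.single s 1)) : ℝ) := by
        push_cast; rfl
    _ ≤ ∑ s ∈ Finset.univ.filter (fun s : Face X i => g s ≠ 0), K :=
        Finset.sum_le_sum (fun s _ => hH s)
    _ = sz g * K := by
        rw [Finset.sum_const, nsmul_eq_mul]; rfl

lemma subfaces_card (i j : ℕ) (t : Face X j) :
    (Finset.univ.filter (fun s : Face X i => s.1 ⊆ t.1)).card = (j + 1).choose (i + 1) := by
  have h : (j + 1).choose (i + 1) = (t.1.powersetCard (i + 1)).card := by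
    rw [Finset.card_powersetCard, t.2.2]
  rw [h]
  refine Finset.card_bij (fun s _ => s.1) ?_ ?_ ?_
  · intro s hs
    simp only [Finset.mem_filter, Finset.mem_univ, true_and] at hs
    exact Finset.mem_powersetCard.mpr ⟨hs, s.2.2⟩
  · intro a _ b _ h
    exact Subtype.ext h
  · intro s hs
    rw [Finset.mem_powersetCard] at hs
    have hne : s.Nonempty := by
      rw [← Finset.card_pos, hs.2]; omega
    exact ⟨⟨s, face_of_subset t.2.1 hs.1 hne, hs.2⟩, by simp [hs.1], rfl⟩

lemma cobd_apply (i : ℕ) (f : Cochain X i) (t : Face X (i + 1)) :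
    cobd X i f t = ∑ s ∈ Finset.univ.filter (fun s : Face X i => s.1 ⊆ t.1), f s := rfl

lemma cobd_single (i : ℕ) (s : Face X i) (t : Face X (i + 1)) :
    cobd X i (Pi.single s 1) t = if s.1 ⊆ t.1 then 1 else 0 := by
  rw [cobd_apply, Finset.sum_filter, Finset.sum_eq_single s]
  · simp
  · intro b _ hb
    simp [Pi.single_apply, hb]
  · simp

lemma cobd_const : cobd X 0 (fun _ => 1) = 0 := by
  funext t
  rw [cobd_apply, Finset.sum_const, subfaces_card]
  show ((0 + 1 + 1).choose (0 + 1)) • (1 : ZMod 2) = 0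
  decide

lemma flip_face {i : ℕ} {b : Face X i} {a : Face X (i + 1)} {t : Face X (i + 1 + 1)}
    (hba : b.1 ⊆ a.1) (hat : a.1 ⊆ t.1) :
    (b.1 ∪ (t.1 \ a.1)) ∈ X.faces ∧ (b.1 ∪ (t.1 \ a.1)).card = i + 1 + 1 := by
  have hcard : (b.1 ∪ (t.1 \ a.1)).card = i + 1 + 1 := by
    rw [Finset.card_union_of_disjoint, Finset.card_sdiff_of_subset hat, b.2.2, t.2.2, a.2.2]
    · omega
    · exact Finset.disjoint_of_subset_left hba Finset.disjoint_sdiff
  refine ⟨face_of_subset t.2.1 ?_ ?_, hcard⟩
  · exact Finset.union_subset (hba.trans hat) Finset.sdiff_subset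
  · rw [← Finset.card_pos, hcard]; omega

lemma cobd_cobd (i : ℕ) (f : Cochain X i) : cobd X (i + 1) (cobd X i f) = 0 := by
  funext t
  rw [cobd_apply]
  simp only [cobd_apply, Pi.zero_apply]
  rw [Finset.sum_comm' (t' := Finset.univ)
    (s' := fun b => Finset.univ.filter (fun a : Face X (i + 1) => b.1 ⊆ a.1 ∧ a.1 ⊆ t.1))
    (by intro a b; simp [and_comm])]
  refine Finset.sum_eq_zero ?_
  intro b _
  refine Finset.sum_involution
    (fun a ha => ⟨b.1 ∪ (t.1 \ a.1), flip_face (Finset.mem_filter.mp ha).2.1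
      (Finset.mem_filter.mp ha).2.2⟩) ?_ ?_ ?_ ?_
  · intro a _
    exact zmod2_add_self _
  · intro a ha _ h
    have hat := (Finset.mem_filter.mp ha).2.2
    have h1 : b.1 ∪ (t.1 \ a.1) = a.1 := congrArg Subtype.val h
    have h2 : (t.1 \ a.1).card = 1 := by
      rw [Finset.card_sdiff_of_subset hat, t.2.2, a.2.2]; omega
    obtain ⟨x, hx⟩ := Finset.card_eq_one.mp h2
    have hx1 : x ∈ t.1 \ a.1 := by rw [hx]; simp
    have hx2 : x ∈ a.1 := by
      rw [← h1]; exact Finset.mem_union_right _ hx1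
    exact (Finset.mem_sdiff.mp hx1).2 hx2
  · intro a ha
    have hba := (Finset.mem_filter.mp ha).2.1
    have hat := (Finset.mem_filter.mp ha).2.2
    simp only [Finset.mem_filter, Finset.mem_univ, true_and]
    exact ⟨Finset.subset_union_left, Finset.union_subset (hba.trans hat) Finset.sdiff_subset⟩
  · intro a ha
    have hba := (Finset.mem_filter.mp ha).2.1
    have hat := (Finset.mem_filter.mp ha).2.2
    apply Subtype.ext
    show b.1 ∪ (t.1 \ (b.1 ∪ (t.1 \ a.1))) = a.1
    ext x
    simp only [Finset.mem_union, Finset.mem_sdiff, not_or, not_and, not_not]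
    constructor
    · rintro (h | ⟨h1, _, h3⟩)
      · exact hba h
      · exact h3 h1
    · intro h
      by_cases hb : x ∈ b.1
      · exact Or.inl hb
      · exact Or.inr ⟨hat h, hb, fun _ => h⟩

lemma topCount_pos {d i : ℕ} (hp : IsPure X d) (s : Face X i) : 1 ≤ topCount X d s.1 := by
  obtain ⟨t, ht, hst, hc⟩ := hp s.1 s.2.1
  unfold topCount
  rw [Nat.succ_le_iff, Finset.card_pos]
  exact ⟨⟨t, ht, hc⟩, by simp [hst]⟩

lemma topCount_anti (d : ℕ) {s t : Finset V} (h : s ⊆ t) : topCount X d t ≤ topCount X d s := by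
  unfold topCount
  refine Finset.card_le_card ?_
  intro a ha
  simp only [Finset.mem_filter, Finset.mem_univ, true_and] at ha ⊢
  exact h.trans ha

lemma topCount_vertex_le {d D : ℕ} (hD : degree X d ≤ D) (v : V) : topCount X d {v} ≤ D :=
  le_trans (Finset.le_sup (f := fun v : V => topCount X d {v}) (Finset.mem_univ v)) hD

lemma face_nonempty {i : ℕ} (s : Face X i) : s.1.Nonempty := by
  rw [← Finset.card_pos, s.2.2]; omega

lemma topCount_le {d D i : ℕ} (hD : degree X d ≤ D) (s : Face X i) : topCount X d s.1 ≤ D := by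
  obtain ⟨v, hv⟩ := face_nonempty s
  exact le_trans (topCount_anti d (Finset.singleton_subset_iff.mpr hv)) (topCount_vertex_le hD v)

lemma card_top_pos {d i : ℕ} (hp : IsPure X d) (s : Face X i) : 0 < Fintype.card (Face X d) := by
  obtain ⟨t, ht, _, hc⟩ := hp s.1 s.2.1
  exact Fintype.card_pos_iff.mpr ⟨⟨t, ht, hc⟩⟩

lemma face_le_dim {d i : ℕ} (hp : IsPure X d) (s : Face X i) : i ≤ d := by
  obtain ⟨t, _, hst, hc⟩ := hp s.1 s.2.1
  have := Finset.card_le_card hst
  rw [s.2.2, hc] at this
  omega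

lemma denom_pos {d i : ℕ} (hp : IsPure X d) (s : Face X i) :
    0 < (((d + 1).choose (i + 1) : ℝ) * (Fintype.card (Face X d) : ℝ)) := by
  have h1 : 0 < (d + 1).choose (i + 1) := Nat.choose_pos (by have := face_le_dim hp s; omega)
  have h2 := card_top_pos hp s
  positivity

lemma weight_lower {d i : ℕ} (hp : IsPure X d) (s : Face X i) :
    1 / (((d + 1).choose (i + 1) : ℝ) * (Fintype.card (Face X d) : ℝ)) ≤ weight X d i s := by
  unfold weight
  have h := denom_pos hp s
  have h1 : (1 : ℝ) ≤ topCount X d s.1 := by exact_mod_cast topCount_pos hp s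
  gcongr

lemma weight_upper {d D i : ℕ} (hp : IsPure X d) (hD : degree X d ≤ D) (s : Face X i) :
    weight X d i s ≤ D / (((d + 1).choose (i + 1) : ℝ) * (Fintype.card (Face X d) : ℝ)) := by
  unfold weight
  have h := denom_pos hp s
  have h1 : (topCount X d s.1 : ℝ) ≤ D := by exact_mod_cast topCount_le hD s
  gcongr

lemma norm_lower {d i : ℕ} (hp : IsPure X d) (f : Cochain X i) :
    (sz f : ℝ) / (((d + 1).choose (i + 1) : ℝ) * (Fintype.card (Face X d) : ℝ)) ≤ norm X d i f := by
  unfold norm sz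
  calc ((Finset.univ.filter (fun s : Face X i => f s ≠ 0)).card : ℝ)
        / (((d + 1).choose (i + 1) : ℝ) * (Fintype.card (Face X d) : ℝ))
      = ∑ s ∈ Finset.univ.filter (fun s : Face X i => f s ≠ 0),
        1 / (((d + 1).choose (i + 1) : ℝ) * (Fintype.card (Face X d) : ℝ)) := by
        rw [Finset.sum_const, nsmul_eq_mul, mul_one_div]
    _ ≤ _ := Finset.sum_le_sum (fun s _ => weight_lower hp s)

lemma norm_upper {d D i : ℕ} (hp : IsPure X d) (hD : degree X d ≤ D) (f : Cochain X i) :
    norm X d i f ≤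
      (D : ℝ) * sz f / (((d + 1).choose (i + 1) : ℝ) * (Fintype.card (Face X d) : ℝ)) := by
  unfold norm sz
  calc _ ≤ ∑ s ∈ Finset.univ.filter (fun s : Face X i => f s ≠ 0),
        (D : ℝ) / (((d + 1).choose (i + 1) : ℝ) * (Fintype.card (Face X d) : ℝ)) :=
        Finset.sum_le_sum (fun s _ => weight_upper hp hD s)
    _ = _ := by
        rw [Finset.sum_const, nsmul_eq_mul]; ring

lemma cofaces_le {d D i : ℕ} (hp : IsPure X d) (hD : degree X d ≤ D) (s : Face X i) :
    sz (cobd X i (Pi.single s 1)) ≤ D * 2 ^ (d + 1) := by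
  obtain ⟨v, hv⟩ := face_nonempty s
  unfold sz
  have h1 : ((Finset.univ.filter (fun t : Face X (i + 1) => cobd X i (Pi.single s 1) t ≠ 0)).image
      (fun t => t.1)) ⊆
      (Finset.univ.filter (fun T : Face X d => ({v} : Finset V) ⊆ T.1)).biUnion
        (fun T => T.1.powerset) := by
    intro a ha
    rw [Finset.mem_image] at ha
    obtain ⟨t, ht, rfl⟩ := ha
    simp only [Finset.mem_filter, Finset.mem_univ, true_and, cobd_single] at ht
    have hst : s.1 ⊆ t.1 := by
      by_contra h
      exact ht (by simp [h])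
    obtain ⟨T, hT, htT, hc⟩ := hp t.1 t.2.1
    rw [Finset.mem_biUnion]
    refine ⟨⟨T, hT, hc⟩, ?_, Finset.mem_powerset.mpr htT⟩
    simp only [Finset.mem_filter, Finset.mem_univ, true_and, Finset.singleton_subset_iff]
    exact htT (hst hv)
  rw [← Finset.card_image_of_injective _ (Subtype.val_injective)]
  refine le_trans (Finset.card_le_card h1) (le_trans Finset.card_biUnion_le ?_)
  calc ∑ T ∈ Finset.univ.filter (fun T : Face X d => ({v} : Finset V) ⊆ T.1), T.1.powerset.card
      = ∑ T ∈ Finset.univ.filter (fun T : Face X d => ({v} : Finset V) ⊆ T.1), 2 ^ (d + 1) := by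
        refine Finset.sum_congr rfl ?_
        intro T _
        rw [Finset.card_powerset, T.2.2]
    _ = topCount X d {v} * 2 ^ (d + 1) := by
        rw [Finset.sum_const, smul_eq_mul]; rfl
    _ ≤ D * 2 ^ (d + 1) := Nat.mul_le_mul_right _ (topCount_vertex_le hD v)

lemma card_vertices_le {d : ℕ} (hp : IsPure X d) :
    Fintype.card V ≤ (d + 1) * Fintype.card (Face X d) := by
  have h1 : (Finset.univ : Finset V) ⊆ (Finset.univ : Finset (Face X d)).biUnion (fun T => T.1) := by
    intro v _
    obtain ⟨T, hT, hvT, hc⟩ := hp {v} (X.singleton_mem v)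
    rw [Finset.mem_biUnion]
    exact ⟨⟨T, hT, hc⟩, Finset.mem_univ _, Finset.singleton_subset_iff.mp hvT⟩
  calc Fintype.card V = (Finset.univ : Finset V).card := rfl
    _ ≤ _ := Finset.card_le_card h1
    _ ≤ ∑ T : Face X d, T.1.card := Finset.card_biUnion_le
    _ = ∑ _T : Face X d, (d + 1) := Finset.sum_congr rfl (fun T _ => T.2.2)
    _ = (d + 1) * Fintype.card (Face X d) := by
        rw [Finset.sum_const, smul_eq_mul, mul_comm]; rfl

end Vale.Agent.P067
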