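import Mathlib

open Classical

namespace Vale.Agent.P067

lemma exists_sparse_section {ι : Type*} [Fintype ι]
    (Bd : Submodule (ZMod 2) (ι → ZMod 2)) :
    ∃ ρ : (ι → ZMod 2) →ₗ[ZMod 2] (ι → ZMod 2),
      (∀ f, f - ρ f ∈ Bd) ∧ (∀ f ∈ Bd, ρ f = 0) ∧
      (∀ f, (Finset.univ.filter (fun i => ρ f i ≠ 0)).card ≤
        Module.finrank (ZMod 2) ((ι → ZMod 2) ⧸ Bd)) := by
  set π := Bd.mkQ with hπ
  set S : Set ((ι → ZMod 2) ⧸ Bd) := Set.range (fun t => π (Pi.single t 1)) with hSdef
  have hS : ⊤ ≤ Submodule.span (ZMod 2) S := by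
    have h1 : Submodule.map π (Submodule.span (ZMod 2) (Set.range (Pi.basisFun (ZMod 2) ι))) = ⊤ := by
      rw [(Pi.basisFun (ZMod 2) ι).span_eq, Submodule.map_top, hπ, Submodule.range_mkQ]
    rw [Submodule.map_span, ← Set.range_comp] at h1
    rw [← h1]
    refine Submodule.span_mono ?_
    rintro _ ⟨t, rfl⟩
    exact ⟨t, by simp [Pi.basisFun_apply]⟩
  let b := Module.Basis.ofSpan hS
  have hmem : ∀ x : ((linearIndepOn_empty (ZMod 2) id).extend (Set.empty_subset S)),
      ∃ t, π (Pi.single t 1) = (x : (ι → ZMod 2) ⧸ Bd) := by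
    intro x
    have hx : (x : (ι → ZMod 2) ⧸ Bd) ∈ S := (LinearIndepOn.extend_subset _ _) x.2
    exact hx
  choose tt htt using hmem
  let s := b.constr (ZMod 2) (fun x => (Pi.single (tt x) 1 : ι → ZMod 2))
  have hπs : π ∘ₗ s = LinearMap.id := by
    refine b.ext ?_
    intro x
    simp only [LinearMap.comp_apply, LinearMap.id_apply, s, Module.Basis.constr_basis]
    rw [htt x]
    exact (Module.Basis.ofSpan_apply_self hS x).symm
  refine ⟨s ∘ₗ π, ?_, ?_, ?_⟩
  · intro f
    rw [← Submodule.Quotient.mk_eq_zero]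
    show π (f - (s ∘ₗ π) f) = 0
    rw [map_sub, LinearMap.comp_apply]
    have := LinearMap.congr_fun hπs (π f)
    simp only [LinearMap.comp_apply, LinearMap.id_apply] at this
    rw [this, sub_self]
  · intro f hf
    have : π f = 0 := by
      rw [hπ]
      exact (Submodule.Quotient.mk_eq_zero Bd).mpr hf
    rw [LinearMap.comp_apply, this, map_zero]
  · intro f
    have : Fintype ((linearIndepOn_empty (ZMod 2) id).extend (Set.empty_subset S)) :=
      Fintype.ofFinite _
    rw [Module.finrank_eq_card_basis b]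
    have hsub : (Finset.univ.filter (fun i => (s ∘ₗ π) f i ≠ 0)) ⊆ Finset.univ.image tt := by
      intro i hi
      simp only [Finset.mem_filter, Finset.mem_univ, true_and, LinearMap.comp_apply] at hi
      rw [Module.Basis.constr_apply_fintype] at hi
      rw [Finset.sum_apply] at hi
      obtain ⟨x, _, hx⟩ := Finset.exists_ne_zero_of_sum_ne_zero hi
      rw [Finset.mem_image]
      refine ⟨x, Finset.mem_univ _, ?_⟩
      by_contra hne
      apply hx
      simp [Ne.symm hne]
    exact le_trans (Finset.card_le_card hsub) Finset.card_image_le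

end Vale.Agent.P067
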