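import Vale.Agent.P067.Cofill
import Vale.Agent.P067.Section

open Classical

namespace Vale.Agent.P067

universe u

variable {V : Type u} [Fintype V] {X : AbstractSimplicialComplex V}

lemma sz_le_of_cofill {d D m : ℕ} {ε : ℝ} (hε : 0 < ε) (hp : IsPure X d) (hD : degree X d ≤ D)
    (hm : m < d) (u : Cochain X m) (g : Cochain X (m + 1))
    (h : ε * norm X d m u ≤ norm X d (m + 1) g) :
    (sz u : ℝ) ≤ (2 ^ (d + 1) * D / ε) * sz g := by
  by_cases hu : sz u = 0
  · rw [hu]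
    simp only [Nat.cast_zero]
    positivity
  · obtain ⟨s, _⟩ : ∃ s : Face X m, s ∈ Finset.univ.filter (fun s : Face X m => u s ≠ 0) := by
      have : 0 < sz u := Nat.pos_of_ne_zero hu
      unfold sz at this
      exact Finset.card_pos.mp this
    have hF : (0 : ℝ) < (Fintype.card (Face X d) : ℝ) := by exact_mod_cast card_top_pos hp s
    have ha : (0 : ℝ) < ((d + 1).choose (m + 1) : ℝ) := by
      exact_mod_cast Nat.choose_pos (by omega)
    have ha2 : ((d + 1).choose (m + 1) : ℝ) ≤ 2 ^ (d + 1) := by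
      exact_mod_cast Nat.choose_le_two_pow (d + 1) (m + 1)
    have hc : (1 : ℝ) ≤ ((d + 1).choose (m + 1 + 1) : ℝ) := by
      exact_mod_cast Nat.choose_pos (by omega)
    have h1 := norm_lower hp u
    have h2 := norm_upper hp hD g
    set a := ((d + 1).choose (m + 1) : ℝ)
    set c := ((d + 1).choose (m + 1 + 1) : ℝ)
    set Fr := (Fintype.card (Face X d) : ℝ)
    rw [div_le_iff₀ (by positivity)] at h1
    rw [div_mul_eq_mul_div, le_div_iff₀ hε]
    have hsg : (0 : ℝ) ≤ sz g := Nat.cast_nonneg _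
    have hDn : (0 : ℝ) ≤ D := Nat.cast_nonneg _
    calc (sz u : ℝ) * ε ≤ (norm X d m u * (a * Fr)) * ε := by gcongr
      _ = (ε * norm X d m u) * (a * Fr) := by ring
      _ ≤ norm X d (m + 1) g * (a * Fr) := by gcongr
      _ ≤ ((D : ℝ) * sz g / (c * Fr)) * (a * Fr) := by gcongr
      _ = (D : ℝ) * sz g * a / c := by field_simp
      _ ≤ (D : ℝ) * sz g * a := div_le_self (by positivity) hc
      _ ≤ (D : ℝ) * sz g * 2 ^ (d + 1) := by gcongr
      _ = 2 ^ (d + 1) * D * sz g := by ring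

def Good (X : AbstractSimplicialComplex V) (m : ℕ) (K : ℝ) : Prop :=
  ∃ H : Cochain X (m + 1) →ₗ[ZMod 2] Cochain X m,
    (∀ s, (sz (H (Pi.single s 1)) : ℝ) ≤ K) ∧
    ∀ f, cobd X m (f + H (cobd X m f)) = 0

lemma Good.mono {m : ℕ} {K K' : ℝ} (h : Good X m K) (hK : K ≤ K') : Good X m K' := by
  obtain ⟨H, h1, h2⟩ := h
  exact ⟨H, fun s => le_trans (h1 s) hK, h2⟩

lemma lift {d D m : ℕ} {ε : ℝ} (hε : 0 < ε) (hp : IsPure X d) (hD : degree X d ≤ D)
    (hc : Cofill X d ε) (hm : m < d)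
    (W : Cochain X (m + 1) →ₗ[ZMod 2] Cochain X (m + 1)) (S : ℝ)
    (hW : ∀ s, W (Pi.single s 1) ∈ LinearMap.range (cobd X m))
    (hS : ∀ s, (sz (W (Pi.single s 1)) : ℝ) ≤ S) :
    ∃ H : Cochain X (m + 1) →ₗ[ZMod 2] Cochain X m,
      (∀ f, cobd X m (H f) = W f) ∧
      ∀ s, (sz (H (Pi.single s 1)) : ℝ) ≤ (2 ^ (d + 1) * D / ε) * S := by
  choose u hu using fun s => hc.1 m hm _ (hW s)
  let H := (Pi.basisFun (ZMod 2) (Face X (m + 1))).constr (ZMod 2) u
  have hH : ∀ s, H (Pi.single s 1) = u s := by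
    intro s
    rw [← Pi.basisFun_apply]
    exact Module.Basis.constr_basis _ _ _ _
  refine ⟨H, ?_, ?_⟩
  · have : cobd X m ∘ₗ H = W := by
      refine (Pi.basisFun (ZMod 2) (Face X (m + 1))).ext ?_
      intro s
      rw [Pi.basisFun_apply, LinearMap.comp_apply, hH, (hu s).1]
    intro f
    exact LinearMap.congr_fun this f
  · intro s
    rw [hH]
    refine le_trans (sz_le_of_cofill hε hp hD hm (u s) _ (hu s).2) ?_
    have : (0 : ℝ) ≤ 2 ^ (d + 1) * D / ε := by positivity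
    exact mul_le_mul_of_nonneg_left (hS s) this

lemma sz_sub_le {i : ℕ} (f g : Cochain X i) : sz (f - g) ≤ sz f + sz g := by
  unfold sz
  refine le_trans (Finset.card_le_card ?_) (Finset.card_union_le _ _)
  intro s hs
  simp only [Finset.mem_filter, Finset.mem_univ, true_and, Finset.mem_union, Pi.sub_apply] at hs ⊢
  by_contra h
  push Not at h
  exact hs (by rw [h.1, h.2, sub_zero])

lemma add_self_cochain {i : ℕ} (f : Cochain X i) : f + f = 0 := by
  funext s
  exact zmod2_add_self _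

noncomputable def Wmap {m : ℕ} (H : Cochain X (m + 1) →ₗ[ZMod 2] Cochain X m) :
    Cochain X m →ₗ[ZMod 2] Cochain X m :=
  LinearMap.id + H ∘ₗ cobd X m

lemma Wmap_apply {m : ℕ} (H : Cochain X (m + 1) →ₗ[ZMod 2] Cochain X m) (f : Cochain X m) :
    Wmap H f = f + H (cobd X m f) := rfl

noncomputable def Rmap {m : ℕ} (ρ : Cochain X m →ₗ[ZMod 2] Cochain X m) :
    Cochain X m →ₗ[ZMod 2] Cochain X m :=
  LinearMap.id - ρ

lemma Rmap_apply {m : ℕ} (ρ : Cochain X m →ₗ[ZMod 2] Cochain X m) (f : Cochain X m) :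
    Rmap ρ f = f - ρ f := rfl

lemma base {m D : ℕ} {ε : ℝ} (hε : 0 < ε) (hp : IsPure X (m + 1)) (hD : degree X (m + 1) ≤ D)
    (hc : Cofill X (m + 1) ε) :
    Good X m ((2 ^ (m + 1 + 1) * D / ε) *
      (1 + Module.finrank (ZMod 2) (Cochain X (m + 1) ⧸ cobounds X (m + 1)))) := by
  obtain ⟨ρ, h1, h2, h3⟩ := exists_sparse_section (cobounds X (m + 1))
  obtain ⟨H, hH1, hH2⟩ := lift hε hp hD hc (Nat.lt_succ_self m) (Rmap ρ)
    (1 + Module.finrank (ZMod 2) (Cochain X (m + 1) ⧸ cobounds X (m + 1)))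
    (fun s => h1 _) (by
      intro s
      have e1 := sz_sub_le (Pi.single s 1 : Cochain X (m + 1)) (ρ (Pi.single s 1))
      have e2 := sz_single_le s
      have e3 : sz (ρ (Pi.single s 1)) ≤
        Module.finrank (ZMod 2) (Cochain X (m + 1) ⧸ cobounds X (m + 1)) := h3 _
      have e4 : sz (Rmap ρ (Pi.single s 1 : Cochain X (m + 1))) ≤
        1 + Module.finrank (ZMod 2) (Cochain X (m + 1) ⧸ cobounds X (m + 1)) := by
        rw [Rmap_apply]
        omega
      exact_mod_cast e4)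
  refine ⟨H, hH2, ?_⟩
  intro f
  rw [map_add, hH1, Rmap_apply]
  have : ρ (cobd X m f) = 0 := h2 _ ⟨f, rfl⟩
  rw [this, sub_zero]
  exact add_self_cochain _

lemma sz_W_le {d D m : ℕ} (hp : IsPure X d) (hD : degree X d ≤ D) {K : ℝ} (hK : 0 ≤ K)
    (H : Cochain X (m + 1) →ₗ[ZMod 2] Cochain X m)
    (hb : ∀ s, (sz (H (Pi.single s 1)) : ℝ) ≤ K) (s : Face X m) :
    (sz (Wmap H (Pi.single s 1)) : ℝ) ≤ 1 + D * 2 ^ (d + 1) * K := by
  rw [Wmap_apply]
  have e1 := sz_add_le (Pi.single s 1 : Cochain X m) (H (cobd X m (Pi.single s 1)))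
  have e2 := sz_single_le s
  have e3 := sz_map_le H K hb (cobd X m (Pi.single s 1))
  have e4 : (sz (cobd X m (Pi.single s 1)) : ℝ) ≤ D * 2 ^ (d + 1) := by
    exact_mod_cast cofaces_le hp hD s
  have e5 : (sz (Pi.single s 1 + H (cobd X m (Pi.single s 1))) : ℝ) ≤
      1 + sz (H (cobd X m (Pi.single s 1))) := by
    have : sz (Pi.single s 1 + H (cobd X m (Pi.single s 1))) ≤
      1 + sz (H (cobd X m (Pi.single s 1))) := by omega
    exact_mod_cast this
  have e6 : (sz (cobd X m (Pi.single s 1)) : ℝ) * K ≤ D * 2 ^ (d + 1) * K :=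
    mul_le_mul_of_nonneg_right e4 hK
  linarith

lemma norm_lt_of_sz {d D i : ℕ} {ε T : ℝ} (hp : IsPure X d) (hD : degree X d ≤ D)
    (s : Face X i) (w : Cochain X i) (hw : (sz w : ℝ) ≤ T)
    (hthr : D * T < ε * Fintype.card (Face X d)) : norm X d i w < ε := by
  have hF : (0 : ℝ) < (Fintype.card (Face X d) : ℝ) := by exact_mod_cast card_top_pos hp s
  have hc : (1 : ℝ) ≤ ((d + 1).choose (i + 1) : ℝ) := by
    exact_mod_cast Nat.choose_pos (by have := face_le_dim hp s; omega)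
  have h2 := norm_upper hp hD w
  have hDn : (0 : ℝ) ≤ D := Nat.cast_nonneg _
  have hsz : (0 : ℝ) ≤ sz w := Nat.cast_nonneg _
  calc norm X d i w ≤ (D : ℝ) * sz w /
        (((d + 1).choose (i + 1) : ℝ) * (Fintype.card (Face X d) : ℝ)) := h2
    _ ≤ (D : ℝ) * sz w / (1 * (Fintype.card (Face X d) : ℝ)) := by gcongr
    _ = (D : ℝ) * sz w / (Fintype.card (Face X d) : ℝ) := by rw [one_mul]
    _ ≤ (D : ℝ) * T / (Fintype.card (Face X d) : ℝ) := by gcongr
    _ < ε := by rw [div_lt_iff₀ hF]; exact hthr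

lemma step {d D m : ℕ} {ε : ℝ} (hε : 0 < ε) (hp : IsPure X d) (hD : degree X d ≤ D)
    (hc : Cofill X d ε) (hm : m + 1 < d) {K : ℝ} (hK : 0 ≤ K) (hg : Good X (m + 1) K)
    (hthr : D * (1 + D * 2 ^ (d + 1) * K) < ε * Fintype.card (Face X d)) :
    Good X m ((2 ^ (d + 1) * D / ε) * (1 + D * 2 ^ (d + 1) * K)) := by
  obtain ⟨H', hb, hz⟩ := hg
  have hW : ∀ s, Wmap H' (Pi.single s 1) ∈ LinearMap.range (cobd X m) := by
    intro s
    have hcyc : Wmap H' (Pi.single s 1) ∈ cocycles X (m + 1) := hz _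
    exact hc.2 (m + 1) hm _ hcyc (norm_lt_of_sz hp hD s _ (sz_W_le hp hD hK H' hb s) hthr)
  obtain ⟨H, hH1, hH2⟩ := lift hε hp hD hc (Nat.lt_of_succ_lt hm)
    (Wmap H') (1 + D * 2 ^ (d + 1) * K) hW (fun s => sz_W_le hp hD hK H' hb s)
  refine ⟨H, hH2, ?_⟩
  intro f
  rw [map_add, hH1, Wmap_apply, cobd_cobd, map_zero, add_zero]
  exact add_self_cochain _

lemma card_face_zero : Fintype.card (Face X 0) = Fintype.card V := by
  symm
  refine Fintype.card_of_bijective
    (f := fun v : V => (⟨{v}, X.singleton_mem v, Finset.card_singleton v⟩ : Face X 0)) ⟨?_, ?_⟩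
  · intro a b h
    exact Finset.singleton_injective (congrArg Subtype.val h)
  · intro s
    obtain ⟨a, ha⟩ := Finset.card_eq_one.mp s.2.2
    exact ⟨a, Subtype.ext ha.symm⟩

lemma sz_one : sz (fun _ => 1 : Cochain X 0) = Fintype.card V := by
  rw [← card_face_zero (X := X)]
  unfold sz
  simp

lemma final {d D : ℕ} {ε : ℝ} (hp : IsPure X d) (hD : degree X d ≤ D)
    (hc : Cofill X d ε) (hd : 0 < d) {K : ℝ} (hK : 0 ≤ K) (hg : Good X 0 K)
    (hthr : D * (1 + D * 2 ^ (d + 1) * K) < ε * Fintype.card (Face X d))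
    (hn : 1 + D * 2 ^ (d + 1) * K < Fintype.card V) : False := by
  obtain ⟨H, hb, hz⟩ := hg
  have hzero : ∀ s : Face X 0, Wmap H (Pi.single s 1) = 0 := by
    intro s
    have hcyc : Wmap H (Pi.single s 1) ∈ cocycles X 0 := hz _
    have hsz := sz_W_le hp hD hK H hb s
    have hB := hc.2 0 hd _ hcyc (norm_lt_of_sz hp hD s _ hsz hthr)
    obtain ⟨a, ha⟩ := Submodule.mem_span_singleton.mp hB
    by_cases ha0 : a = 0
    · rw [← ha, ha0, zero_smul]
    · exfalso
      have ha1 := zmod2_eq_one a ha0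
      rw [ha1, one_smul] at ha
      rw [← ha, sz_one] at hsz
      linarith
  have hall : Wmap H = 0 := by
    refine (Pi.basisFun (ZMod 2) (Face X 0)).ext ?_
    intro s
    rw [Pi.basisFun_apply, hzero s]
    rfl
  have h1 := LinearMap.congr_fun hall (fun _ => 1)
  rw [Wmap_apply, cobd_const, map_zero, add_zero] at h1
  have hpos : (0 : ℝ) < Fintype.card V := by
    have : (0 : ℝ) ≤ 1 + D * 2 ^ (d + 1) * K := by positivity
    linarith
  have hpos' : 0 < Fintype.card V := by exact_mod_cast hpos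
  obtain ⟨v⟩ := Fintype.card_pos_iff.mp hpos'
  have h2 := congrFun h1 (⟨{v}, X.singleton_mem v, Finset.card_singleton v⟩ : Face X 0)
  simp at h2

lemma thr {d D : ℕ} {ε T : ℝ} (hε : 0 < ε) (hp : IsPure X d)
    (h : (2 ^ (d + 1) * D / ε) * T < Fintype.card V) :
    D * T < ε * Fintype.card (Face X d) := by
  have h1 : (Fintype.card V : ℝ) ≤ 2 ^ (d + 1) * Fintype.card (Face X d) := by
    have e1 : Fintype.card V ≤ (d + 1) * Fintype.card (Face X d) := card_vertices_le hp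
    have e2 : d + 1 ≤ 2 ^ (d + 1) := Nat.le_of_lt Nat.lt_two_pow_self
    have e3 : Fintype.card V ≤ 2 ^ (d + 1) * Fintype.card (Face X d) :=
      le_trans e1 (Nat.mul_le_mul_right _ e2)
    exact_mod_cast e3
  have h2 : (2 : ℝ) ^ (d + 1) * (D * T / ε) < 2 ^ (d + 1) * Fintype.card (Face X d) := by
    calc (2 : ℝ) ^ (d + 1) * (D * T / ε) = (2 ^ (d + 1) * D / ε) * T := by ring
      _ < Fintype.card V := h
      _ ≤ _ := h1
  have h3 : D * T / ε < Fintype.card (Face X d) := lt_of_mul_lt_mul_left h2 (by positivity)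
  rw [div_lt_iff₀ hε] at h3
  linarith

theorem chain (d D : ℕ) (ε : ℝ) (hε : 0 < ε) (j : ℕ) :
    ∃ A : ℝ, 0 < A ∧ ∀ (V : Type u) [Fintype V] (X : AbstractSimplicialComplex V),
      IsPure X d → degree X d ≤ D → Cofill X d ε → ∀ m, m + j + 1 = d →
      A * (1 + Module.finrank (ZMod 2) (Cochain X d ⧸ cobounds X d)) < Fintype.card V →
      Good X m (A * (1 + Module.finrank (ZMod 2) (Cochain X d ⧸ cobounds X d))) := by
  induction j with
  | zero =>
    refine ⟨2 ^ (d + 1) * D / ε + 1, by positivity, ?_⟩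
    intro V _ X hp hD hc m hm _
    obtain rfl : d = m + 1 := by omega
    refine (base hε hp hD hc).mono ?_
    have : (0 : ℝ) ≤ 1 + Module.finrank (ZMod 2) (Cochain X (m + 1) ⧸ cobounds X (m + 1)) := by
      positivity
    nlinarith
  | succ j ih =>
    obtain ⟨A, hA, ih⟩ := ih
    refine ⟨A + (2 ^ (d + 1) * D / ε) * (1 + D * 2 ^ (d + 1) * A), by positivity, ?_⟩
    intro V _ X hp hD hc m hm hlt
    set q : ℝ := 1 + Module.finrank (ZMod 2) (Cochain X d ⧸ cobounds X d) with hq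
    have hq1 : (1 : ℝ) ≤ q := by
      rw [hq]
      have : (0 : ℝ) ≤ Module.finrank (ZMod 2) (Cochain X d ⧸ cobounds X d) := Nat.cast_nonneg _
      linarith
    have hκ : (0 : ℝ) ≤ 2 ^ (d + 1) * D / ε := by positivity
    have hL : (0 : ℝ) ≤ D * 2 ^ (d + 1) * A := by positivity
    have hlt1 : A * q < Fintype.card V := by
      have : (0 : ℝ) ≤ (2 ^ (d + 1) * D / ε) * (1 + D * 2 ^ (d + 1) * A) * q := by positivity
      nlinarith
    have hg := ih V X hp hD hc (m + 1) (by omega) hlt1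
    have hb1 : 1 + D * 2 ^ (d + 1) * (A * q) ≤ (1 + D * 2 ^ (d + 1) * A) * q := by nlinarith
    have hb2 : (2 ^ (d + 1) * D / ε) * (1 + D * 2 ^ (d + 1) * (A * q)) ≤
        (A + (2 ^ (d + 1) * D / ε) * (1 + D * 2 ^ (d + 1) * A)) * q := by
      have := mul_le_mul_of_nonneg_left hb1 hκ
      have h0 : 0 ≤ A * q := by positivity
      nlinarith
    have hthr := thr (T := 1 + D * 2 ^ (d + 1) * (A * q)) hε hp (lt_of_le_of_lt hb2 hlt)
    exact (step hε hp hD hc (by omega) (by positivity) hg hthr).mono hb2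

theorem top_linear (d D : ℕ) (hd : 1 ≤ d) (ε : ℝ) (hε : 0 < ε) :
    ∃ c : ℝ, 0 < c ∧ ∀ (V : Type u) [Fintype V] (X : AbstractSimplicialComplex V),
      IsPure X d → degree X d ≤ D → Cofill X d ε →
      c * Fintype.card V ≤ 1 + Module.finrank (ZMod 2) (Cochain X d ⧸ cobounds X d) := by
  obtain ⟨A, hA, ih⟩ := chain.{u} d D ε hε (d - 1)
  refine ⟨1 / (A + (1 + 2 ^ (d + 1) * D / ε) * (1 + D * 2 ^ (d + 1) * A)), by positivity, ?_⟩
  intro V _ X hp hD hc
  set q : ℝ := 1 + Module.finrank (ZMod 2) (Cochain X d ⧸ cobounds X d) with hq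
  have hq1 : (1 : ℝ) ≤ q := by
    rw [hq]
    have : (0 : ℝ) ≤ Module.finrank (ZMod 2) (Cochain X d ⧸ cobounds X d) := Nat.cast_nonneg _
    linarith
  have hκ : (0 : ℝ) ≤ 2 ^ (d + 1) * D / ε := by positivity
  have hL : (0 : ℝ) ≤ D * 2 ^ (d + 1) * A := by positivity
  have hApos : 0 < A + (1 + 2 ^ (d + 1) * D / ε) * (1 + D * 2 ^ (d + 1) * A) := by positivity
  rw [one_div, inv_mul_le_iff₀ hApos]
  by_contra hcon
  push Not at hcon
  have hb1 : 1 + D * 2 ^ (d + 1) * (A * q) ≤ (1 + D * 2 ^ (d + 1) * A) * q := by nlinarith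
  have h0 : 0 ≤ A * q := by positivity
  have hX : 0 ≤ (1 + D * 2 ^ (d + 1) * A) * q := by positivity
  have hlt1 : A * q < Fintype.card V := by
    have : (0 : ℝ) ≤ (1 + 2 ^ (d + 1) * D / ε) * ((1 + D * 2 ^ (d + 1) * A) * q) := by positivity
    nlinarith
  have hg := ih V X hp hD hc 0 (by omega) hlt1
  have hb2 : (2 ^ (d + 1) * D / ε) * (1 + D * 2 ^ (d + 1) * (A * q)) <
      Fintype.card V := by
    have := mul_le_mul_of_nonneg_left hb1 hκ
    nlinarith
  have hb3 : 1 + D * 2 ^ (d + 1) * (A * q) < Fintype.card V := by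
    have : 0 ≤ (2 ^ (d + 1) * D / ε) * ((1 + D * 2 ^ (d + 1) * A) * q) := by positivity
    nlinarith
  exact final hp hD hc (by omega) h0 hg (thr hε hp hb2) hb3

end Vale.Agent.P067
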