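import Vale.Agent.P067.Basic

namespace Vale.Agent.P067

def BoundedDegreeExpandersExist (d : ℕ) : Prop :=
  ∃ (D : ℕ) (ε : ℝ), 0 < ε ∧
    ∃ (n : ℕ → ℕ) (X : ∀ m, AbstractSimplicialComplex (Fin (n m))),
      Filter.Tendsto n Filter.atTop Filter.atTop ∧
      ∀ m, (oneSkeleton (X m)).Connected ∧ IsPure (X m) d ∧ degree (X m) d ≤ D ∧
        IsCoboundaryExpander (X m) d ε

end Vale.Agent.P067
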