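import Vale.Agent.P067.Main
import Vale.Agent.P067.Question

open Classical

namespace Vale.Agent.P067

universe u

variable {V : Type u} [Fintype V] {X : AbstractSimplicialComplex V}

def CE (X : AbstractSimplicialComplex V) (i : ℕ) (η : ℝ) : Prop :=
  ∀ f : Cochain X i, ∃ a ∈ cobounds X i, η * sz (f - a) ≤ sz (cobd X i f)

lemma ce_of_expander {d D i : ℕ} {ε : ℝ} (hε : 0 < ε) (hp : IsPure X d) (hD : degree X d ≤ D)
    (h : IsCoboundaryExpander X d ε) (hi : i < d) (hDpos : 0 < D) :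
    CE X i (ε / (2 ^ (d + 1) * D)) := by
  intro f
  obtain ⟨a, ha, hd⟩ := distTo_attained d i f (cobounds X i)
  refine ⟨a, ha, ?_⟩
  have h1 := h i hi f
  rw [← hd] at h1
  have h2 := sz_le_of_cofill hε hp hD hi (f - a) (cobd X i f) h1
  have hpos : (0 : ℝ) < 2 ^ (d + 1) * D := by positivity
  rw [div_mul_eq_mul_div, div_le_iff₀ hpos]
  rw [div_mul_eq_mul_div, le_div_iff₀ hε] at h2
  linarith

lemma norm_nonneg' (d i : ℕ) (f : Cochain X i) : 0 ≤ norm X d i f := by
  unfold norm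
  refine Finset.sum_nonneg ?_
  intro s _
  unfold weight
  positivity

lemma distTo_le (d i : ℕ) (f : Cochain X i) (A : Submodule (ZMod 2) (Cochain X i))
    {a : Cochain X i} (ha : a ∈ A) : distTo X d i f A ≤ norm X d i (f - a) := by
  unfold distTo
  refine ciInf_le (f := fun a : A => norm X d i (f - a.1)) ?_ ⟨a, ha⟩
  exact ⟨0, by rintro _ ⟨b, rfl⟩; exact norm_nonneg' _ _ _⟩

lemma expander_of_ce {d D : ℕ} {η : ℝ} (hη : 0 < η) (hp : IsPure X d) (hD : degree X d ≤ D)
    (h : ∀ i, i < d → CE X i η) (hDpos : 0 < D) :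
    IsCoboundaryExpander X d (η / (2 ^ (d + 1) * D)) := by
  intro i hi f
  obtain ⟨a, ha, hle⟩ := h i hi f
  have hpos : (0 : ℝ) < 2 ^ (d + 1) * D := by positivity
  have hd := distTo_le d i f (cobounds X i) ha
  have hcoef : 0 ≤ η / (2 ^ (d + 1) * D) := by positivity
  refine le_trans (mul_le_mul_of_nonneg_left hd hcoef) ?_
  by_cases hz : sz (f - a) = 0
  · have : norm X d i (f - a) = 0 := by
      unfold norm
      unfold sz at hz
      rw [Finset.card_eq_zero] at hz
      rw [hz]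
      simp
    rw [this, mul_zero]
    exact norm_nonneg' _ _ _
  · obtain ⟨s, _⟩ : ∃ s : Face X i, s ∈ Finset.univ.filter (fun s : Face X i => (f - a) s ≠ 0) := by
      have : 0 < sz (f - a) := Nat.pos_of_ne_zero hz
      unfold sz at this
      exact Finset.card_pos.mp this
    have hF : (0 : ℝ) < (Fintype.card (Face X d) : ℝ) := by exact_mod_cast card_top_pos hp s
    have hb : (1 : ℝ) ≤ ((d + 1).choose (i + 1) : ℝ) := by
      exact_mod_cast Nat.choose_pos (by omega)
    have hc : (0 : ℝ) < ((d + 1).choose (i + 1 + 1) : ℝ) := by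
      exact_mod_cast Nat.choose_pos (by omega)
    have hc2 : ((d + 1).choose (i + 1 + 1) : ℝ) ≤ 2 ^ (d + 1) := by
      exact_mod_cast Nat.choose_le_two_pow (d + 1) (i + 1 + 1)
    have h1 := norm_upper hp hD (f - a)
    have h2 := norm_lower hp (cobd X i f)
    set b := ((d + 1).choose (i + 1) : ℝ)
    set c := ((d + 1).choose (i + 1 + 1) : ℝ)
    set Fr := (Fintype.card (Face X d) : ℝ)
    have hs1 : (0 : ℝ) ≤ sz (f - a) := Nat.cast_nonneg _
    have hs2 : (0 : ℝ) ≤ sz (cobd X i f) := Nat.cast_nonneg _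
    have hDr : (0 : ℝ) < D := by exact_mod_cast hDpos
    calc η / (2 ^ (d + 1) * D) * norm X d i (f - a)
        ≤ η / (2 ^ (d + 1) * D) * ((D : ℝ) * sz (f - a) / (b * Fr)) := by gcongr
      _ = (η * sz (f - a)) / (2 ^ (d + 1) * (b * Fr)) := by field_simp
      _ ≤ (sz (cobd X i f) : ℝ) / (2 ^ (d + 1) * (b * Fr)) := by gcongr
      _ ≤ (sz (cobd X i f) : ℝ) / (c * (1 * Fr)) := by gcongr
      _ = (sz (cobd X i f) : ℝ) / (c * Fr) := by rw [one_mul]
      _ ≤ _ := h2

omit [Fintype V] in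
lemma face_nonempty' {s : Finset V} (hs : s ∈ X.faces) : s.Nonempty :=
  (X.isRelLowerSet_faces hs).1

def skel (X : AbstractSimplicialComplex V) (d : ℕ) : AbstractSimplicialComplex V where
  faces := {s | s ∈ X.faces ∧ s.card ≤ d + 1}
  isRelLowerSet_faces := by
    intro s hs
    refine ⟨face_nonempty' hs.1, ?_⟩
    intro t hts ht
    exact ⟨face_of_subset hs.1 hts ht, le_trans (Finset.card_le_card hts) hs.2⟩
  singleton_mem v := ⟨X.singleton_mem v, by simp⟩

def skelEquiv (X : AbstractSimplicialComplex V) (d i : ℕ) (hi : i ≤ d) :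
    Face (skel X d) i ≃ Face X i where
  toFun s := ⟨s.1, s.2.1.1, s.2.2⟩
  invFun s := ⟨s.1, ⟨s.2.1, by rw [s.2.2]; omega⟩, s.2.2⟩
  left_inv _ := rfl
  right_inv _ := rfl

def pull (X : AbstractSimplicialComplex V) (d i : ℕ) (hi : i ≤ d) (g : Cochain X i) :
    Cochain (skel X d) i := fun s => g (skelEquiv X d i hi s)

lemma sz_pull (d i : ℕ) (hi : i ≤ d) (g : Cochain X i) : sz (pull X d i hi g) = sz g := by
  unfold sz
  refine Finset.card_bij (fun s _ => skelEquiv X d i hi s) ?_ ?_ ?_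
  · intro s hs
    simp only [Finset.mem_filter, Finset.mem_univ, true_and] at hs ⊢
    exact hs
  · intro a _ b _ h
    exact (skelEquiv X d i hi).injective h
  · intro s hs
    refine ⟨(skelEquiv X d i hi).symm s, ?_, by simp⟩
    simp only [Finset.mem_filter, Finset.mem_univ, true_and] at hs ⊢
    exact hs

lemma pull_sub (d i : ℕ) (hi : i ≤ d) (g h : Cochain X i) :
    pull X d i hi (g - h) = pull X d i hi g - pull X d i hi h := rfl

lemma pull_surj (d i : ℕ) (hi : i ≤ d) (f : Cochain (skel X d) i) :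
    ∃ g, pull X d i hi g = f :=
  ⟨fun s => f ((skelEquiv X d i hi).symm s), by funext s; simp [pull]⟩

lemma cobd_pull (d i : ℕ) (hi : i + 1 ≤ d) (g : Cochain X i) :
    cobd (skel X d) i (pull X d i (Nat.le_of_succ_le hi) g) = pull X d (i + 1) hi (cobd X i g) := by
  funext t
  show cobd (skel X d) i (pull X d i (Nat.le_of_succ_le hi) g) t =
    cobd X i g (skelEquiv X d (i + 1) hi t)
  rw [cobd_apply, cobd_apply]
  refine Finset.sum_bij (fun s _ => skelEquiv X d i (Nat.le_of_succ_le hi) s) ?_ ?_ ?_ ?_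
  · intro s hs
    simp only [Finset.mem_filter, Finset.mem_univ, true_and] at hs ⊢
    exact hs
  · intro a _ b _ h
    exact (skelEquiv X d i _).injective h
  · intro s hs
    refine ⟨(skelEquiv X d i (Nat.le_of_succ_le hi)).symm s, ?_, by simp⟩
    simp only [Finset.mem_filter, Finset.mem_univ, true_and] at hs ⊢
    exact hs
  · intro s _
    rfl

lemma pull_mem_cobounds (d i : ℕ) (hi : i ≤ d) (a : Cochain X i) (ha : a ∈ cobounds X i) :
    pull X d i hi a ∈ cobounds (skel X d) i := by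
  cases i with
  | zero =>
    obtain ⟨c, hc⟩ := Submodule.mem_span_singleton.mp ha
    refine Submodule.mem_span_singleton.mpr ⟨c, ?_⟩
    rw [← hc]
    rfl
  | succ i =>
    obtain ⟨h, rfl⟩ := ha
    exact ⟨pull X d i (Nat.le_of_succ_le hi) h, cobd_pull d i hi h⟩

lemma ce_skel {d i : ℕ} {η : ℝ} (hi : i + 1 ≤ d) (h : CE X i η) : CE (skel X d) i η := by
  intro f
  obtain ⟨g, rfl⟩ := pull_surj d i (Nat.le_of_succ_le hi) f
  obtain ⟨a, ha, hle⟩ := h g
  refine ⟨pull X d i (Nat.le_of_succ_le hi) a,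
    pull_mem_cobounds d i (Nat.le_of_succ_le hi) a ha, ?_⟩
  rw [← pull_sub, sz_pull, cobd_pull d i hi, sz_pull]
  exact hle

lemma skel_pure {d : ℕ} (hp : IsPure X (d + 1)) : IsPure (skel X d) d := by
  intro s hs
  obtain ⟨T, hT, hsT, hc⟩ := hp s hs.1
  obtain ⟨t, hst, htT, htc⟩ := Finset.exists_subsuperset_card_eq hsT hs.2 (by rw [hc]; omega)
  have hne : t.Nonempty := by rw [← Finset.card_pos, htc]; omega
  exact ⟨t, ⟨face_of_subset hT htT hne, by rw [htc]⟩, hst, htc⟩

lemma skel_degree {d D : ℕ} (hp : IsPure X (d + 1)) (hD : degree X (d + 1) ≤ D) :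
    degree (skel X d) d ≤ D * 2 ^ (d + 1 + 1) := by
  unfold degree
  rw [Finset.sup_le_iff]
  intro v _
  unfold topCount
  have h1 : ((Finset.univ.filter (fun t : Face (skel X d) d => ({v} : Finset V) ⊆ t.1)).image
      (fun t => t.1)) ⊆
      (Finset.univ.filter (fun T : Face X (d + 1) => ({v} : Finset V) ⊆ T.1)).biUnion
        (fun T => T.1.powerset) := by
    intro a ha
    rw [Finset.mem_image] at ha
    obtain ⟨t, ht, rfl⟩ := ha
    simp only [Finset.mem_filter, Finset.mem_univ, true_and] at ht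
    obtain ⟨T, hT, htT, hc⟩ := hp t.1 t.2.1.1
    rw [Finset.mem_biUnion]
    refine ⟨⟨T, hT, hc⟩, ?_, Finset.mem_powerset.mpr htT⟩
    simp only [Finset.mem_filter, Finset.mem_univ, true_and]
    exact ht.trans htT
  rw [← Finset.card_image_of_injective _ (Subtype.val_injective)]
  refine le_trans (Finset.card_le_card h1) (le_trans Finset.card_biUnion_le ?_)
  calc ∑ T ∈ Finset.univ.filter (fun T : Face X (d + 1) => ({v} : Finset V) ⊆ T.1),
        T.1.powerset.card
      = ∑ T ∈ Finset.univ.filter (fun T : Face X (d + 1) => ({v} : Finset V) ⊆ T.1),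
        2 ^ (d + 1 + 1) := by
        refine Finset.sum_congr rfl ?_
        intro T _
        rw [Finset.card_powerset, T.2.2]
    _ = topCount X (d + 1) {v} * 2 ^ (d + 1 + 1) := by
        rw [Finset.sum_const, smul_eq_mul]; rfl
    _ ≤ D * 2 ^ (d + 1 + 1) := Nat.mul_le_mul_right _ (topCount_vertex_le hD v)

omit [Fintype V] in
lemma skel_oneSkeleton {d : ℕ} (hd : 1 ≤ d) : oneSkeleton (skel X d) = oneSkeleton X := by
  ext u v
  constructor
  · intro h
    exact ⟨h.1, h.2.1⟩
  · intro h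
    refine ⟨h.1, h.2, ?_⟩
    have := Finset.card_le_two (a := u) (b := v)
    omega

theorem skel_expander {d D : ℕ} {ε : ℝ} (hε : 0 < ε) (hp : IsPure X (d + 1))
    (hD : degree X (d + 1) ≤ D) (hDpos : 0 < D) (h : IsCoboundaryExpander X (d + 1) ε) :
    IsCoboundaryExpander (skel X d) d
      (ε / (2 ^ (d + 1 + 1) * D) / (2 ^ (d + 1) * (D * 2 ^ (d + 1 + 1) : ℕ))) := by
  refine expander_of_ce (by positivity) (skel_pure hp) (skel_degree hp hD) ?_ (by positivity)
  intro i hi
  exact ce_skel hi (ce_of_expander hε hp hD h (by omega) hDpos)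

theorem exist_of_exist_succ {d : ℕ} (hd : 1 ≤ d) (h : BoundedDegreeExpandersExist (d + 1)) :
    BoundedDegreeExpandersExist d := by
  obtain ⟨D, ε, hε, n, X, hn, hX⟩ := h
  refine ⟨(D + 1) * 2 ^ (d + 1 + 1),
    ε / (2 ^ (d + 1 + 1) * (D + 1 : ℕ)) / (2 ^ (d + 1) * ((D + 1) * 2 ^ (d + 1 + 1) : ℕ)),
    by positivity, n, fun m => skel (X m) d, hn, ?_⟩
  intro m
  obtain ⟨h1, h2, h3, h4⟩ := hX m
  have h3' : degree (X m) (d + 1) ≤ D + 1 := Nat.le_succ_of_le h3
  refine ⟨?_, skel_pure h2, skel_degree h2 h3', skel_expander hε h2 h3' (Nat.succ_pos D) h4⟩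
  rw [skel_oneSkeleton hd]
  exact h1

end Vale.Agent.P067
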